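import Vale.Agent.P195.Gen.Final

/-!
The Auslander-Reiten condition over Artin algebras, not assumed local, whose radical has
vanishing cube.
-/

namespace Vale.Agent.Results.P195.CubeZeroRadical

universe u v

open CategoryTheory

theorem result (C : Type v) [CommRing C] [IsArtinianRing C]
    (R : Type u) [Ring R] [Algebra C R] [Module.Finite C R]
    (hJ : ∀ a ∈ Ring.jacobson R, ∀ b ∈ Ring.jacobson R, ∀ c ∈ Ring.jacobson R, a * b * c = 0)
    (M : ModuleCat.{u} R) [Module.Finite R M]
    (hMM : ∀ i : ℕ, 1 ≤ i → ∀ e : Abelian.Ext M M i, e = 0)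
    (hMR : ∀ i : ℕ, 1 ≤ i → ∀ e : Abelian.Ext M (ModuleCat.of R R) i, e = 0) :
    Module.Projective R M :=
  Vale.Agent.P195.Gen.projective_of_cube_zero C R hJ M hMM hMR

end Vale.Agent.Results.P195.CubeZeroRadical
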