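import Vale.Agent.P195.Gen.ITFinal

/-!
The Auslander-Reiten condition over Artin algebras for modules whose high syzygies admit
two-term resolutions in `add V` for a fixed module `V` (Igusa-Todorov type hypothesis).
-/

namespace Vale.Agent.Results.P195.IgusaTodorov

universe u v

open CategoryTheory

theorem result (C : Type v) [CommRing C] [IsArtinianRing C]
    (R : Type u) [Ring R] [Algebra C R] [Module.Finite C R]
    (M : ModuleCat.{u} R) [Module.Finite R M]
    (hMM : ∀ i : ℕ, 1 ≤ i → ∀ e : Abelian.Ext M M i, e = 0)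
    (hMR : ∀ i : ℕ, 1 ≤ i → ∀ e : Abelian.Ext M (ModuleCat.of R R) i, e = 0)
    (V : ModuleCat.{u} R) [Module.Finite R V] (n : ℕ)
    (hIT : ∀ (k : ℕ) (X : ModuleCat.{u} R), n ≤ k → Vale.Agent.P195.IsSyzygy M k X →
      ∃ (V₀ V₁ : ModuleCat.{u} R) (i : V₁ ⟶ V₀) (p : V₀ ⟶ X),
        (∃ (m : ℕ) (s : V₀ →ₗ[R] (Fin m → V)) (r : (Fin m → V) →ₗ[R] V₀), ∀ x, r (s x) = x) ∧
        (∃ (m : ℕ) (s : V₁ →ₗ[R] (Fin m → V)) (r : (Fin m → V) →ₗ[R] V₁), ∀ x, r (s x) = x) ∧
        Function.Injective i.hom ∧ Function.Surjective p.hom ∧ Function.Exact i.hom p.hom) :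
    Module.Projective R M :=
  Vale.Agent.P195.projective_of_igusaTodorov C R M hMM hMR V n hIT

end Vale.Agent.Results.P195.IgusaTodorov
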