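import Vale.Agent.P195.Final

/-!
The Auslander-Reiten condition over local Artin algebras, for modules of Loewy length at most two
and for all modules when the radical has vanishing cube.
-/

namespace Vale.Agent.Results.P195.LoewyLengthTwo

universe u v

open CategoryTheory

theorem result (C : Type v) [CommRing C] [IsArtinianRing C]
    (R : Type u) [Ring R] [Algebra C R] [Module.Finite C R] [IsLocalRing R] :
    (∀ (M : ModuleCat.{u} R) [Module.Finite R M],
      (∀ a ∈ Ring.jacobson R, ∀ b ∈ Ring.jacobson R, ∀ x : M, a • b • x = 0) →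
      (∀ i : ℕ, 1 ≤ i → ∀ e : Abelian.Ext M M i, e = 0) →
      ((∀ e : Abelian.Ext M (ModuleCat.of R R) 1, e = 0) ∨
        ¬ ∀ a ∈ Ring.jacobson R, ∀ b ∈ Ring.jacobson R, a * b = 0) →
      Module.Free R M) ∧
    ((∀ a ∈ Ring.jacobson R, ∀ b ∈ Ring.jacobson R, ∀ c ∈ Ring.jacobson R, a * b * c = 0) →
      ∀ (M : ModuleCat.{u} R) [Module.Finite R M],
        (∀ i : ℕ, 1 ≤ i → ∀ e : Abelian.Ext M M i, e = 0) →
        (∀ i : ℕ, 1 ≤ i → ∀ e : Abelian.Ext M (ModuleCat.of R R) i, e = 0) →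
        Module.Free R M) :=
  ⟨fun M _ hM hMM hor => Vale.Agent.P195.free_of_rigid_loewy_two C R M hM hMM hor,
   fun hJ M _ hMM hMR => Vale.Agent.P195.free_of_cube_zero C R hJ M hMM hMR⟩

end Vale.Agent.Results.P195.LoewyLengthTwo
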