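import Vale.Agent.P195.Gen.RepDim

/-!
The Auslander-Reiten condition over Artin algebras admitting a finitely generated generator with
endomorphism ring of global dimension at most three.
-/

namespace Vale.Agent.Results.P195.RepDimThree

universe u v

open CategoryTheory

theorem result (C : Type v) [CommRing C] [IsArtinianRing C]
    (R : Type u) [Ring R] [Algebra C R] [Module.Finite C R]
    (V : Type u) [AddCommGroup V] [Module R V] [Module.Finite R V]
    (hgen : ∃ (m : ℕ) (s : R →ₗ[R] (Fin m → V)) (r : (Fin m → V) →ₗ[R] R), ∀ x, r (s x) = x)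
    (hgl : ∀ N : ModuleCat.{u} (Module.End R V)ᵐᵒᵖ, HasProjectiveDimensionLT N 4)
    (M : ModuleCat.{u} R) [Module.Finite R M]
    (hMM : ∀ i : ℕ, 1 ≤ i → ∀ e : Abelian.Ext M M i, e = 0)
    (hMR : ∀ i : ℕ, 1 ≤ i → ∀ e : Abelian.Ext M (ModuleCat.of R R) i, e = 0) :
    Module.Projective R M :=
  Vale.Agent.P195.Gen.projective_of_gldim_le_three C R V hgen hgl M hMM hMR

end Vale.Agent.Results.P195.RepDimThree
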